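import Vale.Agent.P230.Final

open MeasureTheory Set
open scoped ENNReal Pointwise

namespace Vale.Agent.Results.P230.LatticeLogCube

/-- The lattice covering density of `K`: the infimum of `vol K / det Λ` over all full-rank
lattices `Λ` with `K + Λ = ℝⁿ`. -/
noncomputable def thetaL {n : ℕ} (K : Set (Fin n → ℝ)) : ℝ≥0∞ :=
  ⨅ (Λ : Submodule ℤ (Fin n → ℝ)) (_ : DiscreteTopology Λ) (_ : IsZLattice ℝ Λ)
    (_ : K + (Λ : Set (Fin n → ℝ)) = univ), volume K / ENNReal.ofReal (ZLattice.covolume Λ)

/-- The supremum of the lattice covering densities of all convex bodies (compact convex sets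
with nonempty interior) in dimension `n`. -/
noncomputable def ThetaL (n : ℕ) : ℝ≥0∞ :=
  ⨆ (K : Set (Fin n → ℝ)) (_ : Convex ℝ K) (_ : IsCompact K) (_ : (interior K).Nonempty),
    thetaL K

/-- `Θ_L(n) ≤ C n (log n)³`. -/
theorem result : ∃ C : ℝ, ∀ n : ℕ, 2 ≤ n →
    ThetaL n ≤ ENNReal.ofReal (C * n * (Real.log n) ^ 3) := by
  obtain ⟨C, hC, hall⟩ := Vale.Agent.P230.body_cover
  refine ⟨C, fun n hn => ?_⟩
  unfold ThetaL
  refine iSup_le fun K => iSup_le fun hc => iSup_le fun hk => iSup_le fun hi => ?_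
  obtain ⟨M, hdet, hcov, hvol⟩ := hall n hn K hc hk hi
  -- the lattice spanned by the columns of M
  have hU : IsUnit M.transpose.det := by
    rw [Matrix.det_transpose]; exact isUnit_iff_ne_zero.2 hdet
  have hli : LinearIndependent ℝ M.transpose.row :=
    (Matrix.linearIndependent_rows_iff_isUnit.2 ((Matrix.isUnit_iff_isUnit_det _).2 hU))
  let b : Module.Basis (Fin n) ℝ (Fin n → ℝ) :=
    basisOfLinearIndependentOfCardEqFinrank' _ hli (by simp)
  have hb : ∀ i, b i = M.transpose i := by
    intro i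
    simp only [b, coe_basisOfLinearIndependentOfCardEqFinrank']
    rfl
  let Λ : Submodule ℤ (Fin n → ℝ) := Submodule.span ℤ (Set.range b)
  have hcovol : ZLattice.covolume Λ = |M.det| := by
    let b' : Module.Basis (Fin n) ℤ Λ := b.restrictScalars ℤ
    rw [ZLattice.covolume_eq_det Λ b']
    have : (Matrix.of ((↑) ∘ ⇑b') : Matrix (Fin n) (Fin n) ℝ) = M.transpose := by
      ext i j
      have h1 : ((b' i : Λ) : Fin n → ℝ) = M.transpose i :=
        (b.restrictScalars_apply ℤ i).trans (hb i)
      exact congrFun h1 j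
    rw [this, Matrix.det_transpose]
  have hsum : K + (Λ : Set (Fin n → ℝ)) = univ := by
    rw [Set.eq_univ_iff_forall]
    intro y
    obtain ⟨k, hk, z, hz⟩ := hcov y
    rw [hz]
    refine Set.add_mem_add hk ?_
    have : M.mulVec (fun i => (z i : ℝ)) = ∑ i, z i • b i := by
      ext j
      simp only [Matrix.mulVec, dotProduct, Finset.sum_apply, hb, zsmul_eq_mul]
      exact Finset.sum_congr rfl fun i _ => mul_comm _ _
    rw [this]
    exact Submodule.sum_mem _ fun i _ => Submodule.smul_mem _ _ (Submodule.subset_span ⟨i, rfl⟩)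
  unfold thetaL
  have i1 : DiscreteTopology Λ := inferInstance
  have i2 : IsZLattice ℝ Λ := inferInstance
  refine (iInf_le_of_le Λ (iInf_le_of_le i1 (iInf_le_of_le i2
    (iInf_le_of_le hsum le_rfl)))).trans ?_
  rw [hcovol]
  have hdpos : 0 < |M.det| := abs_pos.2 hdet
  rw [ENNReal.div_le_iff (by simpa using hdet) ENNReal.ofReal_ne_top,
    ← ENNReal.ofReal_mul' hdpos.le]
  have hfin : volume K ≠ ∞ := hk.measure_ne_top
  rw [← ENNReal.ofReal_toReal hfin]
  exact ENNReal.ofReal_le_ofReal hvol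

end Vale.Agent.Results.P230.LatticeLogCube
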